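import Vale.Agent.P025.R2.H816.J03

/-!
# P025 (7.3), piece (L2): approximation at the zeros of a function (helper885)

Contract: `origin/helper497:Vale/Agent/P025/R2/H497/Spec.lean`, section L2.
-/

set_option linter.all false

namespace P025H885

open Vale.Agent.P019P IntermediateField

section L2

variable {k F : Type*} [Field k] [Field F] [Algebra k F] [CFF k F]

theorem exists_pi {ζ : F} (hζ : ∀ a : k, ζ ≠ algebraMap k F a) (x : Plk k F) (hx : 0 < ord x ζ) :
    ∃ π : F, ord x π = 1 ∧ ∀ x' : Plk k F, 0 < ord x' ζ → π ∈ Mge x' 0 := by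
  classical
  obtain ⟨π, -, h⟩ := exists_ord_eq (zeros_finite hζ).toFinset (fun _ : Plk k F => (1 : ℤ))
  refine ⟨π, h x (by rw [Set.Finite.mem_toFinset]; exact hx), fun x' hx' => mem_Mge.2 (Or.inr ?_)⟩
  rw [h x' (by rw [Set.Finite.mem_toFinset]; exact hx')]
  exact zero_le_one

theorem exists_y {ζ : F} (hζ : ∀ a : k, ζ ≠ algebraMap k F a) (x : Plk k F) (hx : 0 < ord x ζ) :
    ∃ y : F, y - 1 ∈ Mge x (ord x ζ) ∧
      ∀ x' : Plk k F, 0 < ord x' ζ → x' ≠ x → y ∈ Mge x' (ord x' ζ) := by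
  classical
  have hmem : ∀ x' : Plk k F, 0 < ord x' ζ → x' ∈ (zeros_finite hζ).toFinset := fun x' hx' => by
    rw [Set.Finite.mem_toFinset]; exact hx'
  have hpos : ∀ x' ∈ (zeros_finite hζ).toFinset, 0 ≤ ord x' ζ := fun x' hx' => by
    rw [Set.Finite.mem_toFinset] at hx'
    exact le_of_lt hx'
  have hle : ∀ x' : Plk k F, 0 < ord x' ζ →
      ord x' ζ ≤ ∑ P ∈ (zeros_finite hζ).toFinset, ord P ζ := fun x' hx' =>
    Finset.single_le_sum (f := fun P : Plk k F => ord P ζ) hpos (hmem x' hx')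
  obtain ⟨y, hy⟩ := weak_appr (zeros_finite hζ).toFinset
    (fun P : Plk k F => if P = x then (1 : F) else 0) (∑ P ∈ (zeros_finite hζ).toFinset, ord P ζ)
  refine ⟨y, ?_, fun x' hx' hne => ?_⟩
  · have h := hy x (hmem x hx)
    rw [if_pos rfl] at h
    exact Mge_mono x (hle x hx) h
  · have h := hy x' (hmem x' hx')
    rw [if_neg hne, sub_zero] at h
    exact Mge_mono x' (hle x' hx') h

end L2

end P025H885
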