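import Vale.Agent.P025.R2.H816.J03

/-!
# P025 (7.3), pieces (L3a), (L4b): powers and the degree of a function (helper885)
-/

set_option linter.all false

namespace P025H885

open Vale.Agent.P019P IntermediateField

section Pow

variable {k F : Type*} [Field k] [Field F] [Algebra k F] [CFF k F]

/-- the order of a zero is at most the degree. -/
theorem ord_le_finrank {x : F} (hx : ∀ a : k, x ≠ algebraMap k F a) (P : Plk k F) :
    ord P x ≤ Module.finrank k⟮x⟯ F := by
  by_cases hP : 0 < ord P x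
  · have h := sum_ord_le hx {P} (fun Q hQ => by rwa [Finset.mem_singleton.1 hQ])
    rwa [Finset.sum_singleton] at h
  · exact (not_lt.1 hP).trans (Int.natCast_nonneg _)

/-- (L4b) a generator of a rational function field: `c x ^ m` is no `p`-th power for `p ∤ m`. -/
theorem const_mul_pow_ne {p : ℕ} {x : F} (hx1 : Module.finrank k⟮x⟯ F = 1)
    (hx : ∀ a : k, x ≠ algebraMap k F a) {m : ℕ} (hm : ¬ p ∣ m) {c : k} (hc : c ≠ 0) (g : F) :
    algebraMap k F c * x ^ m ≠ g ^ p := by
  intro h
  have hx0 : x ≠ 0 := fun h0 => hx 0 (by rw [h0, map_zero])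
  have hc0 : algebraMap k F c ≠ 0 := by rwa [Ne, map_eq_zero]
  obtain ⟨P, hP⟩ := exists_zero hx
  have h1 : ord P x = 1 := by
    have h2 := ord_le_finrank hx P
    rw [hx1] at h2
    push_cast at h2
    omega
  have h3 : (m : ℤ) = p * ord P g := by
    rw [← ord_pow, ← h, ord_mul P hc0 (pow_ne_zero m hx0), ord_const, ord_pow, h1]
    ring
  exact hm (by exact_mod_cast Dvd.intro _ h3.symm)

/-- (L3a) if `c z ^ e = x` then `e ≤ [F : k(x)]`. -/
theorem le_finrank_of_pow {x z : F} (hx : ∀ a : k, x ≠ algebraMap k F a) {c : k} (hc : c ≠ 0)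
    {e : ℕ} (h : algebraMap k F c * z ^ e = x) : e ≤ Module.finrank k⟮x⟯ F := by
  have hx0 : x ≠ 0 := fun h0 => hx 0 (by rw [h0, map_zero])
  have hc0 : algebraMap k F c ≠ 0 := by rwa [Ne, map_eq_zero]
  have hz0 : z ^ e ≠ 0 := fun h0 => hx0 (by rw [← h, h0, mul_zero])
  obtain ⟨P, hP⟩ := exists_zero hx
  have h1 : ord P x = e * ord P z := by
    rw [← h, ord_mul P hc0 hz0, ord_const, ord_pow, zero_add]
  have h2 := ord_le_finrank hx P
  have h3 : 0 < ord P z := by
    rw [h1] at hP
    by_contra hcon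
    exact absurd hP (not_lt.2 (mul_nonpos_of_nonneg_of_nonpos (Int.natCast_nonneg e)
      (not_lt.1 hcon)))
  have h4 : (e : ℤ) * 1 ≤ e * ord P z :=
    mul_le_mul_of_nonneg_left (by omega) (Int.natCast_nonneg e)
  rw [mul_one] at h4
  rw [h1] at h2
  exact_mod_cast h4.trans h2

end Pow

end P025H885
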